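import Mathlib

/-! # P018, H699: lattice points of a simplex. -/

set_option linter.all false

namespace Vale.Agent.P018.H699

open Finset

/-- the points `u` of `ℕ ^ r` with `∑ u i ≤ M`. -/
def A (r M : ℕ) : Finset (Fin r → ℕ) :=
  (Fintype.piFinset fun _ : Fin r => range (M + 1)).filter fun u => ∑ i, u i ≤ M

theorem mem_A {r M : ℕ} {u : Fin r → ℕ} : u ∈ A r M ↔ ∑ i, u i ≤ M := by
  unfold A
  rw [mem_filter, Fintype.mem_piFinset]
  constructor
  · exact fun h => h.2
  · intro h
    refine ⟨fun i => ?_, h⟩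
    rw [mem_range]
    have := Finset.single_le_sum (f := u) (fun j _ => Nat.zero_le _) (mem_univ i)
    omega

theorem card_A (r M : ℕ) : (A r M).card = (M + r).choose r := by
  induction r generalizing M with
  | zero =>
    have : A 0 M = {Fin.elim0} := by
      ext u
      rw [mem_A, mem_singleton]
      constructor
      · intro _
        exact Subsingleton.elim _ _
      · intro _
        simp
    rw [this]
    simp
  | succ r ih =>
    have h1 : ∀ u ∈ A (r + 1) M, u 0 ∈ range (M + 1) := by
      intro u hu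
      rw [mem_A] at hu
      rw [mem_range]
      have := Finset.single_le_sum (f := u) (fun j _ => Nat.zero_le _) (mem_univ 0)
      omega
    rw [card_eq_sum_card_fiberwise h1]
    have h2 : ∀ j ∈ range (M + 1), ((A (r + 1) M).filter fun u => u 0 = j).card =
        (M - j + r).choose r := by
      intro j hj
      rw [mem_range] at hj
      rw [← ih (M - j)]
      refine card_nbij' (fun u i => u i.succ) (fun v => Fin.cons j v) ?_ ?_ ?_ ?_
      · intro u hu
        rw [mem_coe, mem_filter, mem_A, Fin.sum_univ_succ] at hu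
        rw [mem_coe, mem_A]
        show ∑ i : Fin r, u i.succ ≤ M - j
        omega
      · intro v hv
        rw [mem_coe, mem_A] at hv
        rw [mem_coe, mem_filter, mem_A, Fin.sum_univ_succ]
        simp only [Fin.cons_zero, Fin.cons_succ]
        refine ⟨?_, trivial⟩
        omega
      · intro u hu
        rw [mem_coe, mem_filter] at hu
        funext i
        refine Fin.cases ?_ (fun i => ?_) i
        · simp [hu.2]
        · simp
      · intro v hv
        funext i
        simp
    rw [sum_congr rfl h2]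
    have h3 : ∑ j ∈ range (M + 1), (M - j + r).choose r = ∑ j ∈ range (M + 1), (j + r).choose r := by
      rw [← Finset.sum_range_reflect (fun j => (j + r).choose r) (M + 1)]
      refine sum_congr rfl fun j hj => ?_
      rw [Nat.add_sub_cancel]
    rw [h3]
    clear h1 h2 h3 ih
    induction M with
    | zero => simp
    | succ M ihM =>
      rw [sum_range_succ, ihM]
      have : M + 1 + (r + 1) = (M + 1 + r) + 1 := by ring
      rw [this, Nat.choose_succ_succ]
      have h4 : M + (r + 1) = M + 1 + r := by ring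
      rw [h4]
      ring

/-- `card A r M` grows by a factor of at most `1 / (1 - r / (N + 1))` per step beyond `N`. -/
theorem card_step (r N M : ℕ) (h : N ≤ M) :
    (1 - (r : ℝ) / (N + 1)) * (A r (M + 1)).card ≤ (A r M).card := by
  rw [card_A, card_A]
  have h1 : (M + 1 + r).choose r * (M + 1) = (M + r).choose r * (M + 1 + r) := by
    have h2 := Nat.add_one_mul_choose_eq (M + r) M
    have h3 : (M + 1 + r).choose r = (M + r + 1).choose (M + 1) := by
      rw [show M + 1 + r = M + r + 1 by ring]
      rw [← Nat.choose_symm_of_eq_add (n := M + r + 1) (a := M + 1) (b := r) (by ring)]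
    have h4 : (M + r).choose r = (M + r).choose M := by
      rw [← Nat.choose_symm_of_eq_add (n := M + r) (a := M) (b := r) rfl]
    rw [h3, h4]
    rw [← h2]
    ring
  have h1' : ((M + 1 + r).choose r : ℝ) * (M + 1) = ((M + r).choose r : ℝ) * (M + 1 + r) := by
    exact_mod_cast h1
  have hM : (0 : ℝ) < M + 1 := by positivity
  have hN : (0 : ℝ) < N + 1 := by positivity
  have hNM : (N : ℝ) ≤ M := by exact_mod_cast h
  have hc : (0 : ℝ) ≤ ((M + r).choose r : ℝ) := by positivity
  have h5 : ((M + 1 + r).choose r : ℝ) = ((M + r).choose r : ℝ) * ((M + 1 + r) / (M + 1)) := by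
    field_simp
    linarith
  rw [h5]
  have h6 : (1 - (r : ℝ) / (N + 1)) * ((M + 1 + r) / (M + 1)) ≤ 1 := by
    have h7 : (r : ℝ) / (M + 1) ≤ (r : ℝ) / (N + 1) := by
      apply div_le_div_of_nonneg_left (by positivity) hN
      linarith
    have h8 : ((M : ℝ) + 1 + r) / (M + 1) = 1 + r / (M + 1) := by
      field_simp
    rw [h8]
    have h9 : (0 : ℝ) ≤ r / (M + 1) := by positivity
    nlinarith
  calc (1 - (r : ℝ) / (N + 1)) * (((M + r).choose r : ℝ) * ((M + 1 + r) / (M + 1)))
      = ((M + r).choose r : ℝ) * ((1 - (r : ℝ) / (N + 1)) * ((M + 1 + r) / (M + 1))) := by ring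
    _ ≤ ((M + r).choose r : ℝ) * 1 := mul_le_mul_of_nonneg_left h6 hc
    _ = _ := mul_one _

theorem card_steps (r N i : ℕ) (hr : r ≤ N + 1) :
    (1 - (r : ℝ) / (N + 1)) ^ i * (A r (N + i)).card ≤ (A r N).card := by
  induction i with
  | zero => simp
  | succ i ih =>
    have h0 : (0 : ℝ) ≤ 1 - (r : ℝ) / (N + 1) := by
      have hN : (0 : ℝ) < N + 1 := by positivity
      rw [sub_nonneg, div_le_one hN]
      exact_mod_cast hr
    have h1 := card_step r N (N + i) (by omega)
    calc (1 - (r : ℝ) / (N + 1)) ^ (i + 1) * (A r (N + (i + 1))).card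
        = (1 - (r : ℝ) / (N + 1)) ^ i * ((1 - (r : ℝ) / (N + 1)) * (A r (N + i + 1)).card) := by
          rw [pow_succ, ← add_assoc]; ring
      _ ≤ (1 - (r : ℝ) / (N + 1)) ^ i * (A r (N + i)).card :=
          mul_le_mul_of_nonneg_left h1 (pow_nonneg h0 _)
      _ ≤ _ := ih

/-- `d · card A r (N + d) < q · card A r (N - 1)` for large `N` if `d < q`. -/
theorem card_lt (d r q N : ℕ) (hq : d < q) (hN : r * (d + 1) * (d + 1) < N) :
    (d : ℝ) * (A r (N + d)).card < q * (A r (N - 1)).card := by
  have hN1 : 1 ≤ N := by omega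
  obtain ⟨N', rfl⟩ : ∃ N', N = N' + 1 := ⟨N - 1, by omega⟩
  rw [Nat.add_sub_cancel]
  have hr : r ≤ N' + 1 := by
    have h0 : r * 1 ≤ r * ((d + 1) * (d + 1)) :=
      Nat.mul_le_mul_left _ (Nat.one_le_iff_ne_zero.2 (by positivity))
    rw [mul_one, ← mul_assoc] at h0
    omega
  have h1 := card_steps r N' (d + 1) hr
  have hNp : (0 : ℝ) < (N' : ℝ) + 1 := by positivity
  have h2 : (1 : ℝ) - (d + 1) * ((r : ℝ) / (N' + 1)) ≤ (1 - (r : ℝ) / (N' + 1)) ^ (d + 1) := by
    have h3 : (-2 : ℝ) ≤ -((r : ℝ) / (N' + 1)) := by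
      have : (r : ℝ) / (N' + 1) ≤ 1 := by
        rw [div_le_one hNp]
        exact_mod_cast hr
      linarith
    have h4 := one_add_mul_le_pow h3 (d + 1)
    push_cast at h4
    rw [← sub_eq_add_neg] at h4
    linarith
  have h5 : ((d : ℝ) + 1) * ((r : ℝ) / (N' + 1)) < 1 / (d + 1) := by
    rw [mul_div_assoc', div_lt_div_iff₀ hNp (by positivity)]
    have : ((r * (d + 1) * (d + 1) : ℕ) : ℝ) < ((N' + 1 : ℕ) : ℝ) := by exact_mod_cast hN
    push_cast at this
    nlinarith
  have hcpos : (0 : ℝ) < ((A r (N' + (d + 1))).card : ℝ) := by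
    rw [card_A]
    exact_mod_cast Nat.choose_pos (by omega)
  have h6 : (1 - 1 / ((d : ℝ) + 1)) * (A r (N' + (d + 1))).card < (A r N').card := by
    calc (1 - 1 / ((d : ℝ) + 1)) * (A r (N' + (d + 1))).card
        < (1 - (r : ℝ) / (N' + 1)) ^ (d + 1) * (A r (N' + (d + 1))).card := by
          apply mul_lt_mul_of_pos_right _ hcpos
          linarith
      _ ≤ _ := h1
  have h7 : (1 : ℝ) - 1 / ((d : ℝ) + 1) = d / (d + 1) := by
    field_simp
    ring
  rw [h7, div_mul_eq_mul_div, div_lt_iff₀ (by positivity)] at h6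
  have h8 : N' + 1 + d = N' + (d + 1) := by ring
  rw [h8]
  calc (d : ℝ) * (A r (N' + (d + 1))).card < (A r N').card * (d + 1) := h6
    _ ≤ q * (A r N').card := by
      rw [mul_comm]
      apply mul_le_mul_of_nonneg_right _ (by positivity)
      exact_mod_cast hq

end Vale.Agent.P018.H699
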