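import Vale.Agent.P018.H867P.AdmOne
import Vale.Agent.P018.R2.H699.Count

/-! # P018, H699: every pair `3 ≤ d`, `2 ≤ k` is admissible at the exponent `1`. -/

set_option linter.all false

namespace Vale.Agent.P018.H699

open Finset Vale.Agent.P018.K Vale.Agent.P018.K2

/-- `∑ (N - |u|)` over all `u` with `|u| ≤ M`, positive parts. -/
noncomputable def S (r M : ℕ) (b : ℝ) (K : ℝ) : ℝ :=
  ∑ u ∈ A r M, max (K - b * ∑ i, (u i : ℝ)) 0

/-- the sum over any finite set of `u` is at most `S`. -/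
theorem sum_le_S (r M : ℕ) (b K : ℝ) (hb : 0 ≤ b) (hM : K ≤ b * (M + 1)) (F : Finset (Fin r → ℕ)) :
    ∑ u ∈ F, (K - b * ∑ i, (u i : ℝ)) ≤ S r M b K := by
  classical
  unfold S
  calc ∑ u ∈ F, (K - b * ∑ i, (u i : ℝ)) ≤ ∑ u ∈ F, max (K - b * ∑ i, (u i : ℝ)) 0 :=
        sum_le_sum fun u _ => le_max_left _ _
    _ ≤ ∑ u ∈ F ∪ A r M, max (K - b * ∑ i, (u i : ℝ)) 0 :=
        sum_le_sum_of_subset_of_nonneg subset_union_left fun _ _ _ => le_max_right _ _
    _ = ∑ u ∈ A r M, max (K - b * ∑ i, (u i : ℝ)) 0 := by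
        symm
        apply sum_subset subset_union_right
        intro u _ hu
        rw [mem_A, not_le] at hu
        apply max_eq_right
        have h1 : (M : ℝ) + 1 ≤ ∑ i, (u i : ℝ) := by exact_mod_cast hu
        have h2 := mul_le_mul_of_nonneg_left h1 hb
        linarith

theorem sum_pairs_le (r M : ℕ) (b L : ℝ) (hb : 0 ≤ b) (hM : L + 1 ≤ b * (M + 1))
    (T' : Finset (ℕ × (Fin r → ℕ))) (hT : ∀ τ ∈ T', τ.1 ≤ 1) :
    ∑ τ ∈ T', (L + τ.1 - b * ∑ i, (τ.2 i : ℝ)) ≤ S r M b L + S r M b (L + 1) := by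
  classical
  have h0 : ∀ τ ∈ T', τ.1 ∈ ({0, 1} : Finset ℕ) := by
    intro τ hτ
    have := hT τ hτ
    simp only [mem_insert, mem_singleton]
    omega
  rw [← sum_fiberwise_of_maps_to h0, sum_pair (by norm_num)]
  have h1 : ∀ t : ℕ, ∑ τ ∈ T' with τ.1 = t, (L + τ.1 - b * ∑ i, (τ.2 i : ℝ)) =
      ∑ u ∈ (T'.filter fun τ => τ.1 = t).image Prod.snd, (L + t - b * ∑ i, (u i : ℝ)) := by
    intro t
    rw [sum_image]
    · refine sum_congr rfl fun τ hτ => ?_
      rw [(mem_filter.1 hτ).2]
    · intro x hx y hy hxy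
      rw [mem_coe, mem_filter] at hx hy
      exact Prod.ext (hx.2.trans hy.2.symm) hxy
  rw [h1 0, h1 1]
  push_cast
  rw [add_zero]
  exact add_le_add (sum_le_S r M b L hb (by linarith) _) (sum_le_S r M b (L + 1) hb hM _)

/-- continuity in `b`. -/
theorem S_cont (r M : ℕ) (K : ℝ) : Continuous fun b : ℝ => S r M b K := by
  unfold S
  fun_prop

/-- the points with `u i = 0`, weighted. -/
theorem card_le_face {r N : ℕ} (i : Fin r) (hN : 1 ≤ N) :
    ((A r (N - 1)).card : ℝ) ≤ ∑ u ∈ (A r N).filter (fun u => u i = 0), ((N : ℝ) - ∑ j, (u j : ℝ)) := by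
  classical
  have h1 : ∀ u ∈ A r (N - 1), Function.update u i 0 ∈ (A r N).filter (fun u => u i = 0) := by
    intro u hu
    rw [mem_A] at hu
    rw [mem_filter, mem_A]
    refine ⟨?_, by simp⟩
    have h2 : ∑ j, Function.update u i 0 j ≤ ∑ j, u j := by
      refine sum_le_sum fun j _ => ?_
      by_cases h : j = i
      · subst h; simp
      · simp [h]
    omega
  rw [card_eq_sum_card_fiberwise h1]
  push_cast
  refine sum_le_sum fun v hv => ?_
  rw [mem_filter, mem_A] at hv
  have h3 : ((A r (N - 1)).filter fun u => Function.update u i 0 = v).card ≤ N - ∑ j, v j := by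
    rw [← card_range (N - ∑ j, v j)]
    refine card_le_card_of_injOn (fun u => u i) ?_ ?_
    · intro u hu
      rw [mem_coe, mem_filter, mem_A] at hu
      rw [mem_coe, mem_range]
      have h4 : ∑ j, u j = ∑ j, v j + u i := by
        rw [← hu.2, sum_update_of_mem (mem_univ i), zero_add,
          ← sum_sdiff (subset_univ ({i} : Finset (Fin r))), sum_singleton]
      show u i < N - ∑ j, v j
      omega
    · intro u hu w hw huw
      rw [mem_coe, mem_filter] at hu hw
      funext j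
      by_cases h : j = i
      · subst h; exact huw
      · have := congrFun (hu.2.trans hw.2.symm) j
        simpa [h] using this
  have h5 : ((N - ∑ j, v j : ℕ) : ℝ) = (N : ℝ) - ∑ j, (v j : ℝ) := by
    rw [Nat.cast_sub hv.1]
    push_cast
    ring
  rw [← h5]
  exact_mod_cast h3

/-- `S` at `b = 1/d`, `K = N/d`. -/
theorem S_val (r M N d : ℕ) (hd : 1 ≤ d) (hM : N ≤ M) :
    S r M (1 / d) ((N : ℝ) / d) = ∑ u ∈ A r N, ((N : ℝ) - ∑ j, (u j : ℝ)) / d := by
  classical
  have hd0 : (0 : ℝ) < d := by exact_mod_cast hd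
  unfold S
  symm
  rw [← sum_subset (s₁ := A r N) (s₂ := A r M)]
  · refine sum_congr rfl fun u hu => ?_
    rw [mem_A] at hu
    have h1 : ∑ j, (u j : ℝ) ≤ N := by exact_mod_cast hu
    rw [max_eq_left]
    · ring
    · have : (0 : ℝ) ≤ (N - ∑ j, (u j : ℝ)) / d := div_nonneg (by linarith) hd0.le
      calc (0 : ℝ) ≤ _ := this
        _ = _ := by ring
  · intro u hu
    rw [mem_A] at hu ⊢
    omega
  · intro u _ hu
    rw [mem_A, not_le] at hu
    have h1 : (N : ℝ) < ∑ j, (u j : ℝ) := by exact_mod_cast hu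
    apply max_eq_right
    have : ((N : ℝ) - ∑ j, (u j : ℝ)) / d ≤ 0 := div_nonpos_of_nonpos_of_nonneg (by linarith) hd0.le
    calc _ = ((N : ℝ) - ∑ j, (u j : ℝ)) / d := by ring
      _ ≤ 0 := this

theorem S_next (r M N d : ℕ) (hd : 1 ≤ d) (hM : N + d ≤ M) :
    S r M (1 / d) ((N : ℝ) / d + 1) ≤ S r M (1 / d) ((N : ℝ) / d) + (A r (N + d)).card := by
  classical
  have hd0 : (0 : ℝ) < d := by exact_mod_cast hd
  unfold S
  have hsub : A r (N + d) ⊆ A r M := by
    intro u hu
    rw [mem_A] at hu ⊢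
    omega
  have h1 : ((A r (N + d)).card : ℝ) = ∑ u ∈ A r M, if ∑ j, u j ≤ N + d then (1 : ℝ) else 0 := by
    rw [sum_ite, sum_const_zero, add_zero, sum_const, nsmul_eq_mul, mul_one]
    congr 2
    ext u
    rw [mem_filter, mem_A, mem_A]
    constructor
    · intro h; exact ⟨by omega, h⟩
    · intro h; exact h.2
  rw [h1, ← sum_add_distrib]
  refine sum_le_sum fun u _ => ?_
  split_ifs with h
  · apply max_le
    · have := le_max_left ((N : ℝ) / d - 1 / d * ∑ j, (u j : ℝ)) 0
      linarith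
    · have := le_max_right ((N : ℝ) / d - 1 / d * ∑ j, (u j : ℝ)) 0
      linarith
  · rw [not_le] at h
    have h2 : (N : ℝ) + d < ∑ j, (u j : ℝ) := by exact_mod_cast h
    rw [add_zero]
    apply max_le
    · refine le_trans ?_ (le_max_right _ _)
      have : ((N : ℝ) + d - ∑ j, (u j : ℝ)) / d ≤ 0 :=
        div_nonpos_of_nonpos_of_nonneg (by linarith) hd0.le
      calc _ = ((N : ℝ) + d - ∑ j, (u j : ℝ)) / d := by field_simp
        _ ≤ 0 := this
    · exact le_max_right _ _

/-- the map to `B`: `u` with the coordinate `i` replaced by `-m`. -/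
def neg1 {r : ℕ} (q : Fin r × ℕ × (Fin r → ℕ)) : ℕ × (Fin r → ℤ) :=
  (1, Function.update (fun j => (q.2.2 j : ℤ)) q.1 (-(q.2.1 : ℤ)))

def pos0 {r : ℕ} (q : ℕ × (Fin r → ℕ)) : ℕ × (Fin r → ℤ) := (q.1, fun j => (q.2 j : ℤ))

/-- the indices of the second part of `B`. -/
def D1 (r k N : ℕ) : Finset (Fin r × ℕ × (Fin r → ℕ)) :=
  ((univ : Finset (Fin r)) ×ˢ (Icc 1 k ×ˢ A r N)).filter fun q => q.2.2 q.1 = 0

theorem pos0_inj {r : ℕ} : Function.Injective (pos0 (r := r)) := by
  intro x y h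
  unfold pos0 at h
  rw [Prod.mk.injEq] at h
  refine Prod.ext h.1 (funext fun j => ?_)
  have h3 : ((x.2 j : ℕ) : ℤ) = ((y.2 j : ℕ) : ℤ) := congrFun h.2 j
  exact_mod_cast h3

theorem neg1_inj (r k N : ℕ) : Set.InjOn (neg1 (r := r)) (D1 r k N : Set _) := by
  classical
  intro x hx y hy h
  obtain ⟨i, m, u⟩ := x
  obtain ⟨i', m', u'⟩ := y
  unfold D1 at hx hy
  rw [mem_coe, mem_filter, mem_product, mem_product, mem_Icc] at hx hy
  unfold neg1 at h
  rw [Prod.mk.injEq] at h
  have h2 : Function.update (fun j => (u j : ℤ)) i (-(m : ℤ)) =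
      Function.update (fun j => (u' j : ℤ)) i' (-(m' : ℤ)) := h.2
  have hm1 : 1 ≤ m := hx.1.2.1.1
  have hu0 : u i = 0 := hx.2
  have hu0' : u' i' = 0 := hy.2
  have hi : i = i' := by
    by_contra hne
    have h3 := congrFun h2 i
    rw [Function.update_self, Function.update_of_ne hne] at h3
    omega
  subst hi
  have hm : m = m' := by
    have h3 := congrFun h2 i
    rw [Function.update_self, Function.update_self] at h3
    omega
  subst hm
  have hu : u = u' := by
    funext j
    by_cases hj : j = i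
    · subst hj
      rw [hu0, hu0']
    · have h3 := congrFun h2 j
      rw [Function.update_of_ne hj, Function.update_of_ne hj] at h3
      exact_mod_cast h3
  subst hu
  rfl

theorem need_nonneg (k : ℕ) (hk : 1 ≤ k) (n : ℕ) : need k (n : ℤ) = 0 := by
  unfold need
  have : (-(n : ℤ)).toNat = 0 := by simp
  rw [this, zero_add]
  exact Nat.div_eq_of_lt (by omega)

theorem need_neg (k : ℕ) (hk : 1 ≤ k) (m : ℕ) (hm : m ≤ k) : need k (-(m : ℤ)) ≤ 1 := by
  unfold need
  have : (-(-(m : ℤ))).toNat = m := by simp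
  rw [this]
  have : (m + (k - 1)) / k < 2 := by
    rw [Nat.div_lt_iff_lt_mul (by omega)]
    omega
  omega

/-- the criterion at the last level, for the exponent `1`. -/
theorem crit_last (d k : ℕ) (hd : 3 ≤ d) (hk : 2 ≤ k) :
    ∃ b : ℝ, 0 < b ∧ b < 1 / d ∧ Crit d k (d - 1) 1 b := by
  classical
  set r := d - 1 with hr
  have hrk : d < r * k := by
    have : 2 * (d - 1) ≤ r * k := by
      rw [hr, mul_comm]
      exact Nat.mul_le_mul_left _ hk
    omega
  obtain ⟨N, hN⟩ : ∃ N, N = r * (d + 1) * (d + 1) + 1 := ⟨_, rfl⟩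
  have hN1 : 1 ≤ N := by omega
  have hd0 : (0 : ℝ) < d := by exact_mod_cast (show 0 < d by omega)
  have hlt := card_lt d r (r * k) N hrk (by omega)
  obtain ⟨M, hM⟩ : ∃ M, M = 2 * (N + d) := ⟨_, rfl⟩
  -- the value at `1 / d`
  have hS0 := S_val r M N d (by omega) (by omega)
  have hS1 := S_next r M N d (by omega) (by omega)
  set S0 : ℝ := ∑ u ∈ A r N, ((N : ℝ) - ∑ j, (u j : ℝ)) / d with hS0def
  have hlt' : S r M (1 / d) ((N : ℝ) / d) + S r M (1 / d) ((N : ℝ) / d + 1) <
      2 * S0 + (r * k : ℕ) * (A r (N - 1)).card / d := by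
    have h1 : ((A r (N + d)).card : ℝ) < (r * k : ℕ) * (A r (N - 1)).card / d := by
      rw [lt_div_iff₀ hd0, mul_comm]
      exact hlt
    linarith
  -- choose `b`
  have hcont : Continuous fun b : ℝ => S r M b ((N : ℝ) / d) + S r M b ((N : ℝ) / d + 1) :=
    (S_cont r M _).add (S_cont r M _)
  have hopen : IsOpen {b : ℝ | S r M b ((N : ℝ) / d) + S r M b ((N : ℝ) / d + 1) <
      2 * S0 + (r * k : ℕ) * (A r (N - 1)).card / d} := isOpen_lt hcont continuous_const
  obtain ⟨ε, hε, hball⟩ := Metric.isOpen_iff.1 hopen (1 / d) hlt'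
  have hd1 : (0 : ℝ) < 1 / d := by positivity
  obtain ⟨b, hb⟩ : ∃ b : ℝ, b = 1 / d - min (ε / 2) (1 / (2 * d)) := ⟨_, rfl⟩
  have hmin0 : 0 < min (ε / 2) (1 / (2 * (d : ℝ))) := lt_min (by linarith) (by positivity)
  have hmin1 : min (ε / 2) (1 / (2 * (d : ℝ))) ≤ ε / 2 := min_le_left _ _
  have hmin2 : min (ε / 2) (1 / (2 * (d : ℝ))) ≤ 1 / (2 * d) := min_le_right _ _
  have hhalf : (1 : ℝ) / d - 1 / (2 * d) = 1 / (2 * d) := by
    field_simp
    ring
  have hb2 : 1 / (2 * (d : ℝ)) ≤ b := by rw [hb]; linarith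
  have hb0 : 0 < b := lt_of_lt_of_le (by positivity) hb2
  have hb1 : b < 1 / d := by rw [hb]; linarith
  have hbball : b ∈ Metric.ball (1 / (d : ℝ)) ε := by
    rw [Metric.mem_ball, Real.dist_eq, abs_lt]
    constructor <;> linarith
  have hbmem := hball hbball
  rw [Set.mem_setOf_eq] at hbmem
  refine ⟨b, hb0, hb1, 1, fun _ => (N : ℝ) / d,
    (({0, 1} : Finset ℕ) ×ˢ A r N).image pos0 ∪ (D1 r k N).image neg1,
    S r M b ((N : ℝ) / d) + S r M b ((N : ℝ) / d + 1), ?_, ?_, ?_, ?_⟩
  · intro x y _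
    exact le_rfl
  · intro p hp
    rw [mem_union, mem_image, mem_image] at hp
    rcases hp with ⟨q, hq, rfl⟩ | ⟨q, hq, rfl⟩
    · rw [mem_product, mem_insert, mem_singleton] at hq
      refine ⟨?_, ?_⟩
      · show q.1 ≤ 1
        omega
      · show needs k (fun j => (q.2 j : ℤ)) ≤ q.1
        unfold needs
        rw [sum_eq_zero fun j _ => need_nonneg k (by omega) (q.2 j)]
        exact Nat.zero_le _
    · unfold D1 at hq
      rw [mem_filter, mem_product, mem_product, mem_Icc] at hq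
      refine ⟨le_rfl, ?_⟩
      show needs k (Function.update (fun j => (q.2.2 j : ℤ)) q.1 (-(q.2.1 : ℤ))) ≤ 1
      unfold needs
      rw [sum_eq_single q.1]
      · rw [Function.update_self]
        exact need_neg k (by omega) _ hq.1.2.1.2
      · intro j _ hj
        rw [Function.update_of_ne hj]
        exact need_nonneg k (by omega) _
      · intro h
        exact absurd (mem_univ _) h
  · intro T' hT
    refine sum_pairs_le r M b ((N : ℝ) / d) hb0.le ?_ T' hT
    have h1 : ((N : ℝ) / d + 1) = (N + d) / d := by field_simp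
    rw [h1, div_le_iff₀ hd0]
    have h2 : (N : ℝ) + d ≤ 1 / (2 * d) * (M + 1) * d := by
      rw [hM]
      push_cast
      have : 1 / (2 * (d : ℝ)) * (2 * ((N : ℝ) + d) + 1) * d = N + d + 1 / 2 := by
        field_simp
      rw [this]
      linarith
    refine h2.trans ?_
    apply mul_le_mul_of_nonneg_right _ hd0.le
    apply mul_le_mul_of_nonneg_right hb2
    positivity
  · refine hbmem.trans_le ?_
    have hdisj : Disjoint ((({0, 1} : Finset ℕ) ×ˢ A r N).image pos0) ((D1 r k N).image neg1) := by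
      rw [disjoint_left]
      intro p hp hp'
      rw [mem_image] at hp hp'
      obtain ⟨q, hq, rfl⟩ := hp
      obtain ⟨q', hq', h⟩ := hp'
      unfold D1 at hq'
      rw [mem_filter, mem_product, mem_product, mem_Icc] at hq'
      unfold neg1 pos0 at h
      rw [Prod.mk.injEq] at h
      have h3 := congrFun h.2 q'.1
      rw [Function.update_self] at h3
      have h4 := hq'.1.2.1.1
      have h5 : -(q'.2.1 : ℤ) = ((q.2 q'.1 : ℕ) : ℤ) := h3
      omega
    rw [sum_union hdisj, sum_image (fun x _ y _ h => pos0_inj h), sum_image (neg1_inj r k N)]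
    have e0 : ∑ q ∈ ({0, 1} : Finset ℕ) ×ˢ A r N, ((N : ℝ) / d - 1 / d *
        ∑ i, (((pos0 q).2 i : ℤ) : ℝ)) = 2 * S0 := by
      rw [sum_product, sum_pair (by norm_num)]
      have e1 : ∀ t : ℕ, ∑ y ∈ A r N, ((N : ℝ) / d - 1 / d *
          ∑ i, (((pos0 (t, y)).2 i : ℤ) : ℝ)) = S0 := by
        intro t
        rw [hS0def]
        refine sum_congr rfl fun u _ => ?_
        have : ∀ i, (((pos0 (t, u)).2 i : ℤ) : ℝ) = (u i : ℝ) := fun i => by
          simp [pos0]
        simp only [this]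
        ring
      rw [e1, e1]
      ring
    have e2 : ((r * k : ℕ) : ℝ) * (A r (N - 1)).card / d ≤
        ∑ q ∈ D1 r k N, ((N : ℝ) / d - 1 / d * ∑ i, (((neg1 q).2 i : ℤ) : ℝ)) := by
      unfold D1
      rw [sum_filter, sum_product]
      have e3 : ∀ i : Fin r, (k : ℝ) * (A r (N - 1)).card / d ≤ ∑ q ∈ Icc 1 k ×ˢ A r N,
          if q.2 i = 0 then ((N : ℝ) / d - 1 / d * ∑ j, (((neg1 (i, q)).2 j : ℤ) : ℝ)) else 0 := by
        intro i
        rw [sum_product]
        have e4 : ∀ m ∈ Icc 1 k, ((A r (N - 1)).card : ℝ) / d ≤ ∑ u ∈ A r N,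
            if u i = 0 then ((N : ℝ) / d - 1 / d * ∑ j, (((neg1 (i, m, u)).2 j : ℤ) : ℝ))
            else 0 := by
          intro m _
          rw [← sum_filter]
          refine (div_le_div_of_nonneg_right (card_le_face i hN1) hd0.le).trans ?_
          rw [sum_div]
          refine sum_le_sum fun u hu => ?_
          rw [mem_filter] at hu
          have h5 : ∑ j, (((neg1 (i, m, u)).2 j : ℤ) : ℝ) ≤ ∑ j, (u j : ℝ) := by
            refine sum_le_sum fun j _ => ?_
            by_cases hj : j = i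
            · subst hj
              simp only [neg1, Function.update_self]
              push_cast
              have : (0 : ℝ) ≤ m := by positivity
              have : (0 : ℝ) ≤ u j := by positivity
              linarith
            · simp only [neg1, Function.update_of_ne hj]
              push_cast
              exact le_rfl
          have h6 : (1 : ℝ) / d * ∑ j, (((neg1 (i, m, u)).2 j : ℤ) : ℝ) ≤
              1 / d * ∑ j, (u j : ℝ) := mul_le_mul_of_nonneg_left h5 hd1.le
          calc ((N : ℝ) - ∑ j, (u j : ℝ)) / d = (N : ℝ) / d - 1 / d * ∑ j, (u j : ℝ) := by ring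
            _ ≤ _ := by linarith
        calc (k : ℝ) * (A r (N - 1)).card / d = ∑ m ∈ Icc 1 k, ((A r (N - 1)).card : ℝ) / d := by
              rw [sum_const, Nat.card_Icc, nsmul_eq_mul, Nat.add_sub_cancel]
              ring
          _ ≤ _ := sum_le_sum e4
      calc ((r * k : ℕ) : ℝ) * (A r (N - 1)).card / d
          = ∑ i : Fin r, (k : ℝ) * (A r (N - 1)).card / d := by
            rw [sum_const, card_univ, Fintype.card_fin, nsmul_eq_mul]
            push_cast
            ring
        _ ≤ _ := sum_le_sum fun i _ => e3 i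
    rw [e0]
    linarith

/-- every pair `d ≥ 3`, `k ≥ 2` is admissible at the exponent `1`. -/
theorem adm_all (d k : ℕ) (hd : 3 ≤ d) (hk : 2 ≤ k) : Adm2 d k 1 := by
  obtain ⟨b, hb0, hb1, h⟩ := crit_last d k hd hk
  exact H867P.adm_of_last d k hd b hb0 hb1 h

end Vale.Agent.P018.H699
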