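import Vale.Agent.P018.R2.H699.AdmAll

/-! # P018, H699: quintic polynomials, squares: the exponents in `[1, 101/100]` are admissible. -/

set_option linter.all false

namespace Vale.Agent.P018.H699

open Finset Vale.Agent.P018.K Vale.Agent.P018.K2

/-- the points of the simplex which vanish on `J`. -/
theorem card_AJ (r : ℕ) (J : Finset (Fin r)) (M : ℕ) :
    ((A r M).filter fun v => ∀ i ∈ J, v i = 0).card = (M + (r - J.card)).choose (r - J.card) := by
  classical
  induction J using Finset.induction_on generalizing M with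
  | empty => simp [card_A]
  | insert i J hi ih =>
    have hc : J.card + 1 ≤ r := by
      have h1 := card_le_univ (insert i J)
      rw [card_insert_of_notMem hi, Fintype.card_fin] at h1
      exact h1
    rw [card_insert_of_notMem hi]
    have hsplit : ((A r M).filter fun v => ∀ j ∈ J, v j = 0).card =
        ((A r M).filter fun v => ∀ j ∈ insert i J, v j = 0).card +
        ((A r M).filter fun v => (∀ j ∈ J, v j = 0) ∧ 1 ≤ v i).card := by
      rw [← card_union_of_disjoint]
      · congr 1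
        ext v
        simp only [mem_union, mem_filter, mem_insert, forall_eq_or_imp]
        constructor
        · rintro ⟨h1, h2⟩
          rcases Nat.eq_zero_or_pos (v i) with h3 | h3
          · exact Or.inl ⟨h1, h3, h2⟩
          · exact Or.inr ⟨h1, h2, h3⟩
        · rintro (⟨h1, h3, h2⟩ | ⟨h1, h2, h3⟩)
          · exact ⟨h1, h2⟩
          · exact ⟨h1, h2⟩
      · rw [disjoint_left]
        intro v hv hv'
        rw [mem_filter] at hv hv'
        have := hv.2 i (mem_insert_self i J)
        omega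
    obtain ⟨e, he⟩ : ∃ e, r - J.card = e + 1 := ⟨r - J.card - 1, by omega⟩
    have he' : r - (J.card + 1) = e := by omega
    rw [he']
    rcases Nat.eq_zero_or_pos M with rfl | hM
    · have h0 : (A r 0).filter (fun v => ∀ j ∈ insert i J, v j = 0) = {fun _ => 0} := by
        ext v
        rw [mem_filter, mem_A, mem_singleton]
        constructor
        · rintro ⟨h1, -⟩
          funext j
          have := Finset.single_le_sum (f := v) (fun j _ => Nat.zero_le _) (mem_univ j)
          omega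
        · rintro rfl
          simp
      rw [h0]
      simp
    · obtain ⟨M', rfl⟩ : ∃ M', M = M' + 1 := ⟨M - 1, by omega⟩
      have hbij : ((A r (M' + 1)).filter fun v => (∀ j ∈ J, v j = 0) ∧ 1 ≤ v i).card =
          ((A r M').filter fun v => ∀ j ∈ J, v j = 0).card := by
        refine card_nbij' (fun v => Function.update v i (v i - 1))
          (fun v => Function.update v i (v i + 1)) ?_ ?_ ?_ ?_
        · intro v hv
          rw [mem_coe, mem_filter, mem_A] at hv
          rw [mem_coe, mem_filter, mem_A]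
          refine ⟨?_, fun j hj => ?_⟩
          · rw [sum_update_of_mem (mem_univ i)]
            rw [← sum_sdiff (subset_univ ({i} : Finset (Fin r))), sum_singleton] at hv
            omega
          · have hji : j ≠ i := fun h => hi (h ▸ hj)
            show Function.update v i (v i - 1) j = 0
            rw [Function.update_of_ne hji]
            exact hv.2.1 j hj
        · intro v hv
          rw [mem_coe, mem_filter, mem_A] at hv
          rw [mem_coe, mem_filter, mem_A]
          refine ⟨?_, fun j hj => ?_, ?_⟩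
          · rw [sum_update_of_mem (mem_univ i)]
            rw [← sum_sdiff (subset_univ ({i} : Finset (Fin r))), sum_singleton] at hv
            omega
          · have hji : j ≠ i := fun h => hi (h ▸ hj)
            show Function.update v i (v i + 1) j = 0
            rw [Function.update_of_ne hji]
            exact hv.2 j hj
          · show 1 ≤ Function.update v i (v i + 1) i
            rw [Function.update_self]
            omega
        · intro v hv
          rw [mem_coe, mem_filter] at hv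
          funext j
          by_cases hj : j = i
          · subst hj
            simp only [Function.update_self]
            omega
          · simp only [Function.update_of_ne hj]
        · intro v hv
          funext j
          by_cases hj : j = i
          · subst hj
            simp only [Function.update_self]
            omega
          · simp only [Function.update_of_ne hj]
      rw [hbij, ih, ih, he] at hsplit
      have h5 : (M' + 1 + (e + 1)).choose (e + 1) =
          (M' + 1 + e).choose e + (M' + (e + 1)).choose (e + 1) := by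
        rw [show M' + 1 + (e + 1) = (M' + 1 + e) + 1 by ring, Nat.choose_succ_succ]
        rw [show M' + (e + 1) = M' + 1 + e by ring]
      omega

theorem hockey (r M : ℕ) : ∑ j ∈ range M, (j + r).choose r = (M + r).choose (r + 1) := by
  induction M with
  | zero => simp
  | succ M ih =>
    rw [sum_range_succ, ih, show M + 1 + r = (M + r) + 1 by ring, Nat.choose_succ_succ]
    ring

theorem sum_AJ (r : ℕ) (J : Finset (Fin r)) (K : ℕ) :
    ∑ v ∈ (A r K).filter (fun v => ∀ i ∈ J, v i = 0), ((K : ℝ) - ∑ j, (v j : ℝ)) =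
      ((K + (r - J.card)).choose (r - J.card + 1) : ℕ) := by
  classical
  rw [← hockey]
  have h1 : ∀ v ∈ (A r K).filter (fun v => ∀ i ∈ J, v i = 0), ((K : ℝ) - ∑ j, (v j : ℝ)) =
      ((∑ M ∈ range K, if ∑ j, v j ≤ M then 1 else 0 : ℕ) : ℝ) := by
    intro v hv
    rw [mem_filter, mem_A] at hv
    rw [← card_filter]
    have h2 : (range K).filter (fun M => ∑ j, v j ≤ M) = Ico (∑ j, v j) K := by
      ext M
      rw [mem_filter, mem_range, mem_Ico]
      omega
    rw [h2, Nat.card_Ico, Nat.cast_sub hv.1]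
    push_cast
    ring
  rw [sum_congr rfl h1]
  rw [← Nat.cast_sum, sum_comm]
  congr 1
  refine sum_congr rfl fun M hM => ?_
  rw [mem_range] at hM
  rw [← card_AJ r J M, ← card_filter, filter_filter]
  congr 1
  ext v
  rw [mem_filter, mem_filter, mem_A, mem_A]
  constructor
  · rintro ⟨h1, h2, h3⟩
    exact ⟨h3, h2⟩
  · rintro ⟨h1, h2⟩
    exact ⟨by omega, h2, h1⟩

theorem card_level (r M P : ℕ) (hP : P ≤ M) :
    ((A (r + 1) M).filter fun v => ∑ i, v i = P).card = (P + r).choose r := by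
  classical
  rw [← card_A r P]
  refine card_nbij' (fun u i => u i.succ) (fun v => Fin.cons (P - ∑ i, v i) v) ?_ ?_ ?_ ?_
  · intro u hu
    rw [mem_coe, mem_filter, mem_A, Fin.sum_univ_succ] at hu
    rw [mem_coe, mem_A]
    show ∑ i : Fin r, u i.succ ≤ P
    omega
  · intro v hv
    rw [mem_coe, mem_A] at hv
    rw [mem_coe, mem_filter, mem_A, Fin.sum_univ_succ]
    simp only [Fin.cons_zero, Fin.cons_succ]
    omega
  · intro u hu
    rw [mem_coe, mem_filter, mem_A, Fin.sum_univ_succ] at hu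
    funext i
    refine Fin.cases ?_ (fun i => ?_) i
    · simp only [Fin.cons_zero]
      omega
    · simp only [Fin.cons_succ]
  · intro v hv
    funext i
    simp

theorem S_level (r M : ℕ) (b K : ℝ) :
    S (r + 1) M b K = ∑ P ∈ range (M + 1), ((P + r).choose r : ℝ) * max (K - b * P) 0 := by
  classical
  unfold S
  have h1 : ∀ u ∈ A (r + 1) M, ∑ i, u i ∈ range (M + 1) := by
    intro u hu
    rw [mem_A] at hu
    rw [mem_range]
    omega
  rw [← sum_fiberwise_of_maps_to h1]
  refine sum_congr rfl fun P hP => ?_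
  rw [mem_range] at hP
  rw [← card_level r M P (by omega), ← nsmul_eq_mul, ← sum_const]
  refine sum_congr rfl fun u hu => ?_
  rw [mem_filter] at hu
  have : ∑ i, (u i : ℝ) = P := by
    rw [← hu.2]
    push_cast
    rfl
  rw [this]

theorem sum_pairs_le' (r M T : ℕ) (b : ℝ) (K : ℕ → ℝ) (hb : 0 ≤ b)
    (hM : ∀ t, t ≤ T → K t ≤ b * (M + 1))
    (T' : Finset (ℕ × (Fin r → ℕ))) (hT : ∀ τ ∈ T', τ.1 ≤ T) :
    ∑ τ ∈ T', (K τ.1 - b * ∑ i, (τ.2 i : ℝ)) ≤ ∑ t ∈ range (T + 1), S r M b (K t) := by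
  classical
  have h0 : ∀ τ ∈ T', τ.1 ∈ range (T + 1) := by
    intro τ hτ
    have := hT τ hτ
    rw [mem_range]
    omega
  rw [← sum_fiberwise_of_maps_to h0]
  refine sum_le_sum fun t ht => ?_
  rw [mem_range] at ht
  have h1 : ∑ τ ∈ T' with τ.1 = t, (K τ.1 - b * ∑ i, (τ.2 i : ℝ)) =
      ∑ u ∈ (T'.filter fun τ => τ.1 = t).image Prod.snd, (K t - b * ∑ i, (u i : ℝ)) := by
    rw [sum_image]
    · refine sum_congr rfl fun τ hτ => ?_
      rw [(mem_filter.1 hτ).2]
    · intro x hx y hy hxy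
      rw [mem_coe, mem_filter] at hx hy
      exact Prod.ext (hx.2.trans hy.2.symm) hxy
  rw [h1]
  exact sum_le_S r M b (K t) hb (hM t (by omega)) _

/-- the negative parts of the exponents. -/
def gv (q : ℕ × ℕ × ℕ × ℕ) : Fin 4 → ℕ := ![q.1, q.2.1, q.2.2.1, q.2.2.2]

theorem gv_inj : Function.Injective gv := by
  rintro ⟨a, b, c, e⟩ ⟨a', b', c', e'⟩ h
  have h0 := congrFun h 0
  have h1 := congrFun h 1
  have h2 := congrFun h 2
  have h3 := congrFun h 3
  simp [gv] at h0 h1 h2 h3
  subst h0 h1 h2 h3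
  rfl

theorem gv_sum (q : ℕ × ℕ × ℕ × ℕ) : ∑ i, gv q i = q.1 + q.2.1 + q.2.2.1 + q.2.2.2 := by
  simp [gv, Fin.sum_univ_four]

/-- the times and the negative parts. -/
def Gam : Finset (ℕ × (ℕ × ℕ × ℕ × ℕ)) :=
  (range 4 ×ˢ (range 7 ×ˢ (range 7 ×ˢ (range 7 ×ˢ range 7)))).filter fun p =>
    (p.2.1 + 1) / 2 + (p.2.2.1 + 1) / 2 + (p.2.2.2.1 + 1) / 2 + (p.2.2.2.2 + 1) / 2 ≤ p.1

def spt (q : ℕ × ℕ × ℕ × ℕ) : Finset (Fin 4) := univ.filter fun i => gv q i ≠ 0

theorem spt_card (q : ℕ × ℕ × ℕ × ℕ) : (spt q).card = (if q.1 = 0 then 0 else 1) +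
    (if q.2.1 = 0 then 0 else 1) + (if q.2.2.1 = 0 then 0 else 1) +
    (if q.2.2.2 = 0 then 0 else 1) := by
  unfold spt
  rw [card_filter, Fin.sum_univ_four]
  obtain ⟨a, b, c, e⟩ := q
  by_cases ha : a = 0 <;> by_cases hb : b = 0 <;> by_cases hc : c = 0 <;> by_cases he : e = 0 <;>
    simp [gv, ha, hb, hc, he]

def AQ (q : ℕ × ℕ × ℕ × ℕ) : Finset (Fin 4 → ℕ) :=
  (A 4 (42 + ∑ i, gv q i)).filter fun v => ∀ i ∈ spt q, v i = 0

def Phi (z : Σ _ : ℕ × (ℕ × ℕ × ℕ × ℕ), Fin 4 → ℕ) : ℕ × (Fin 4 → ℤ) :=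
  (z.1.1, fun i => (z.2 i : ℤ) - gv z.1.2 i)

theorem AQ_zero {q : ℕ × ℕ × ℕ × ℕ} {v : Fin 4 → ℕ} (hv : v ∈ AQ q) (i : Fin 4) :
    gv q i = 0 ∨ v i = 0 := by
  unfold AQ at hv
  rw [mem_filter] at hv
  by_cases h : gv q i = 0
  · exact Or.inl h
  · exact Or.inr (hv.2 i (by unfold spt; rw [mem_filter]; exact ⟨mem_univ _, h⟩))

theorem Phi_inj : Set.InjOn Phi ((Gam.sigma fun p => AQ p.2) : Finset _) := by
  rintro ⟨⟨t, q⟩, v⟩ hz ⟨⟨t', q'⟩, v'⟩ hz' h
  rw [mem_coe, mem_sigma] at hz hz'
  have ht : t = t' := (Prod.mk.inj h).1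
  have hf : ∀ i, (v i : ℤ) - gv q i = (v' i : ℤ) - gv q' i := fun i => congrFun (Prod.mk.inj h).2 i
  have hq : gv q = gv q' := by
    funext i
    have h1 := AQ_zero hz.2 i
    have h2 := AQ_zero hz'.2 i
    have h3 := hf i
    simp only at h1 h2
    omega
  have hv : v = v' := by
    funext i
    have h3 := hf i
    have h4 := congrFun hq i
    omega
  subst ht hv
  rw [gv_inj hq]

theorem need_two (g v : ℕ) (h : g = 0 ∨ v = 0) : need 2 ((v : ℤ) - g) = (g + 1) / 2 := by
  unfold need
  rcases h with rfl | rfl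
  · have : (-((v : ℤ) - (0 : ℕ))).toNat = 0 := by simp
    rw [this]
  · have : (-(((0 : ℕ) : ℤ) - g)).toNat = g := by simp
    rw [this]

theorem numB : ∑ p ∈ Gam, ((42 + (p.2.1 + p.2.2.1 + p.2.2.2.1 + p.2.2.2.2) +
    (4 - ((if p.2.1 = 0 then 0 else 1) + (if p.2.2.1 = 0 then 0 else 1) +
      (if p.2.2.2.1 = 0 then 0 else 1) + (if p.2.2.2.2 = 0 then 0 else 1)))).descFactorial
    (4 - ((if p.2.1 = 0 then 0 else 1) + (if p.2.2.1 = 0 then 0 else 1) +
      (if p.2.2.2.1 = 0 then 0 else 1) + (if p.2.2.2.2 = 0 then 0 else 1)) + 1) /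
    (4 - ((if p.2.1 = 0 then 0 else 1) + (if p.2.2.1 = 0 then 0 else 1) +
      (if p.2.2.2.1 = 0 then 0 else 1) + (if p.2.2.2.2 = 0 then 0 else 1)) + 1).factorial) =
    16453216 := by
  decide +kernel

theorem numV : ∑ t ∈ range 4, ∑ P ∈ range 61,
    ((P + 3).descFactorial 3 / Nat.factorial 3) * (840 + 100 * t - 19 * P) = 328337248 := by
  decide +kernel

theorem valB : ∑ p ∈ Gam, ∑ v ∈ AQ p.2, (((42 + ∑ i, gv p.2 i : ℕ) : ℝ) - ∑ j, (v j : ℝ)) =
    16453216 := by
  have h1 : ∀ p ∈ Gam, ∑ v ∈ AQ p.2, (((42 + ∑ i, gv p.2 i : ℕ) : ℝ) - ∑ j, (v j : ℝ)) =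
      (((42 + ∑ i, gv p.2 i) + (4 - (spt p.2).card)).choose (4 - (spt p.2).card + 1) : ℕ) := by
    intro p _
    exact sum_AJ 4 (spt p.2) (42 + ∑ i, gv p.2 i)
  rw [sum_congr rfl h1, ← Nat.cast_sum]
  have h2 : ∑ p ∈ Gam, ((42 + ∑ i, gv p.2 i) + (4 - (spt p.2).card)).choose
      (4 - (spt p.2).card + 1) = 16453216 := by
    rw [← numB]
    refine sum_congr rfl fun p _ => ?_
    rw [Nat.choose_eq_descFactorial_div_factorial, spt_card, gv_sum]
  rw [h2]
  norm_num

theorem valV : ∑ t ∈ range (3 + 1), S 4 60 (19 / 20) (42 + 5 * (t : ℝ)) = 328337248 / 20 := by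
  have h1 : ∀ t ∈ range (3 + 1), S 4 60 (19 / 20) (42 + 5 * (t : ℝ)) =
      ((∑ P ∈ range 61, ((P + 3).descFactorial 3 / Nat.factorial 3) *
        (840 + 100 * t - 19 * P) : ℕ) : ℝ) / 20 := by
    intro t ht
    refine (S_level 3 60 (19 / 20) (42 + 5 * (t : ℝ))).trans ?_
    push_cast
    rw [sum_div]
    refine sum_congr rfl fun P _ => ?_
    rw [← Nat.choose_eq_descFactorial_div_factorial, mul_div_assoc]
    congr 1
    rcases le_total (19 * P) (840 + 100 * t) with h | h
    · have h' : (19 : ℝ) * P ≤ 840 + 100 * t := by exact_mod_cast h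
      rw [Nat.cast_sub h]
      push_cast
      rw [max_eq_left (by linarith)]
      ring
    · have h' : (840 : ℝ) + 100 * t ≤ 19 * P := by exact_mod_cast h
      rw [Nat.sub_eq_zero_of_le h, max_eq_right (by linarith)]
      simp
  rw [sum_congr rfl h1, ← sum_div, ← Nat.cast_sum]
  have := numV
  rw [show (3 + 1 : ℕ) = 4 from rfl, this]
  norm_num

/-- the criterion for quintics and squares at the last level. -/
theorem crit_quint (a : ℝ) (ha : 1 ≤ a) : Crit 5 2 4 a (19 / 100 * a) := by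
  classical
  obtain ⟨w, hw⟩ : ∃ w : ℝ, w = a / 5 := ⟨_, rfl⟩
  have hw0 : 0 < w := by rw [hw]; linarith
  refine ⟨3, fun _ => 42 * w, (Gam.sigma fun p => AQ p.2).image Phi,
    w * ∑ t ∈ range (3 + 1), S 4 60 (19 / 20) (42 + 5 * (t : ℝ)), ?_, ?_, ?_, ?_⟩
  · intro x y _
    exact le_rfl
  · intro p hp
    rw [mem_image] at hp
    obtain ⟨⟨⟨t, q⟩, v⟩, hz, rfl⟩ := hp
    rw [mem_sigma] at hz
    have hG := hz.1
    unfold Gam at hG
    rw [mem_filter, mem_product, mem_range] at hG
    refine ⟨?_, ?_⟩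
    · show t ≤ 3
      have := hG.1.1
      simp only at this
      omega
    · show needs 2 (fun i => (v i : ℤ) - gv q i) ≤ t
      unfold needs
      rw [sum_congr rfl fun i _ => need_two (gv q i) (v i) (AQ_zero hz.2 i), Fin.sum_univ_four]
      have h2 := hG.2
      simp [gv] at h2 ⊢
      omega
  · intro T' hT
    have h1 : ∀ τ ∈ T', (42 * w + (τ.1 : ℝ) - 19 / 100 * a * ∑ i, (τ.2 i : ℝ)) ≤
        w * ((42 + 5 * (τ.1 : ℝ)) - 19 / 20 * ∑ i, (τ.2 i : ℝ)) := by
      intro τ _
      have h2 : (τ.1 : ℝ) ≤ w * (5 * τ.1) := by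
        rw [hw]
        have : (0 : ℝ) ≤ τ.1 := by positivity
        nlinarith
      have h3 : 19 / 100 * a * ∑ i, (τ.2 i : ℝ) = w * (19 / 20 * ∑ i, (τ.2 i : ℝ)) := by
        rw [hw]; ring
      rw [h3]
      linarith
    refine (sum_le_sum h1).trans ?_
    rw [← mul_sum]
    refine mul_le_mul_of_nonneg_left ?_ hw0.le
    refine sum_pairs_le' 4 60 3 (19 / 20) (fun t => 42 + 5 * (t : ℝ)) (by norm_num) ?_ T' hT
    intro t ht
    have : (t : ℝ) ≤ 3 := by exact_mod_cast ht
    norm_num
    linarith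
  · rw [sum_image Phi_inj, sum_sigma, valV]
    have h1 : ∀ p ∈ Gam, ∑ v ∈ AQ p.2, (42 * w - a / (5 : ℕ) *
        ∑ i, (((Phi ⟨p, v⟩).2 i : ℤ) : ℝ)) =
        w * ∑ v ∈ AQ p.2, (((42 + ∑ i, gv p.2 i : ℕ) : ℝ) - ∑ j, (v j : ℝ)) := by
      intro p _
      rw [mul_sum]
      refine sum_congr rfl fun v _ => ?_
      have h2 : ∑ i, (((Phi ⟨p, v⟩).2 i : ℤ) : ℝ) = ∑ i, (v i : ℝ) - ∑ i, (gv p.2 i : ℝ) := by
        rw [← sum_sub_distrib]
        refine sum_congr rfl fun i _ => ?_
        simp [Phi]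
      rw [h2, hw]
      push_cast
      ring
    rw [sum_congr rfl h1, ← mul_sum, valB]
    apply mul_lt_mul_of_pos_left _ hw0
    norm_num

/-- admissibility from the last level. -/
theorem adm_of_last_gen (d k : ℕ) (hd : 2 ≤ d) (a b : ℝ) (hb0 : 0 < b) (hb1 : b < a / d)
    (hs : ((d : ℝ) - 1) * (a / d) + b < 1) (h : Crit d k (d - 1) a b) : Adm2 d k a := by
  have hd0 : (0 : ℝ) < d := by exact_mod_cast (show 0 < d by omega)
  refine ⟨fun r => if r < d - 1 then a / (d : ℝ) else b, ?_, ?_, ?_, ?_, ?_⟩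
  · simp only
    rw [if_pos (by omega)]
  · intro r
    simp only
    split_ifs with h1 h2 h2
    · exact le_rfl
    · omega
    · exact hb1.le
    · exact le_rfl
  · simp only
    rw [if_neg (by omega)]
    exact hb0
  · intro r hr1 hrd hlt
    have h1 : r = d - 1 := by
      by_contra hne
      simp only at hlt
      rw [if_pos (by omega), if_pos (by omega)] at hlt
      exact lt_irrefl _ hlt
    subst h1
    simp only
    rw [if_neg (by omega)]
    exact h
  · obtain ⟨e, rfl⟩ : ∃ e, d = e + 1 := ⟨d - 1, by omega⟩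
    rw [Finset.sum_range_succ]
    simp only [Nat.add_sub_cancel, lt_irrefl, if_false]
    rw [Finset.sum_congr rfl (g := fun _ => a / ((e + 1 : ℕ) : ℝ)) (fun r hr => by
      rw [if_pos (Finset.mem_range.1 hr)])]
    rw [Finset.sum_const, Finset.card_range, nsmul_eq_mul]
    push_cast at hs ⊢
    rw [add_sub_cancel_right] at hs
    exact hs

/-- **quintics**: all exponents in `[1, 101/100]` are admissible for squares. -/
theorem adm_quint (a : ℝ) (h1 : 1 ≤ a) (h2 : a ≤ 101 / 100) : Adm2 5 2 a := by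
  refine adm_of_last_gen 5 2 (by norm_num) a (19 / 100 * a) (by linarith) ?_ ?_ (crit_quint a h1)
  · push_cast
    linarith
  · push_cast
    linarith

end Vale.Agent.P018.H699
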